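import Vale.Agent.P007.Defs
import Vale.Agent.P007.Main
import Vale.Agent.P007.Classes

open MeasureTheory Filter Topology Module

namespace Vale.Agent.Results.P007.CompositeDegree

open Vale.Agent.P007

/-- (A) In every composite degree `n ≥ 4` the higher-dimensional Duke problem has a negative
answer: there is a sequence of maximal orders of totally real fields of degree `n`, with
discriminants tending to infinity, such that for every choice of the orderings of the real
embeddings no subsequence of the packet measures converges weakly to `m_n`; all these packet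
measures vanish on one and the same nonempty open subset of `X_n`.

(B) The obstruction, in every degree `n`: for each bound `B` there is one nonempty open set
`U ⊆ X_n`, of positive `m_n`-measure, which is a null set for the packet measure of every order
(in any totally real field of degree `n`, with any ordering of the embeddings) that contains an
element `x ∉ ℚ` all of whose conjugates are at most `B` in absolute value.

(C) Hence, in every degree and for all sequences of orders: if the packet measures converge
weakly to `m_n`, then for every `B` all but finitely many of the orders contain no element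
`x ∉ ℚ` all of whose conjugates are at most `B` in absolute value.

(D) All packets are finite and nonempty, and all packet measures are probability measures. -/
theorem result :
    (∀ n : ℕ, 4 ≤ n → ¬ n.Prime → ∃ D : ℕ → Datum n,
      (∀ i, (D i).O = (D i).maxOrder) ∧
      Tendsto (fun i => (D i).absDisc) atTop atTop ∧
      ∃ U : Set (X n), IsOpen U ∧ U.Nonempty ∧
        ∀ π : ℕ → Equiv.Perm (Fin n),
          (∀ i, ((D i).reorder (π i)).packetMeasure U = 0) ∧
          ∀ m : Measure (X n), IsHaarProb m → ∀ φ : ℕ → ℕ, StrictMono φ →
            ¬ ConvergesWeakly (fun i => ((D (φ i)).reorder (π (φ i))).packetMeasure) m) ∧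
    (∀ (n : ℕ) (B : ℝ), ∃ U : Set (X n), IsOpen U ∧ U.Nonempty ∧
      (∀ m : Measure (X n), IsHaarProb m → 0 < m U) ∧
      ∀ D : Datum n, (∃ x ∈ D.O, x ∉ Set.range (algebraMap ℚ D.K) ∧ ∀ j, |D.σ j x| ≤ B) →
        D.packetMeasure U = 0) ∧
    (∀ (n : ℕ) (m : Measure (X n)), IsHaarProb m → ∀ D : ℕ → Datum n,
      ConvergesWeakly (fun i => (D i).packetMeasure) m →
      ∀ B : ℝ, ∀ᶠ i in atTop, ∀ x ∈ (D i).O, (∀ j, |(D i).σ j x| ≤ B) →
        x ∈ Set.range (algebraMap ℚ (D i).K)) ∧
    (∀ (n : ℕ) (D : Datum n),
      D.packet.Finite ∧ D.packet.Nonempty ∧ IsProbabilityMeasure D.packetMeasure) := by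
  refine ⟨?_, ?_, ?_, ?_⟩
  · intro n hn hc
    obtain ⟨B, D, hD1, hD2, hD3⟩ := exists_counterexample n hn hc
    obtain ⟨U, hU, hne, hnull⟩ := exists_open_null n B
    refine ⟨D, hD1, hD2, U, hU, hne, fun π => ?_⟩
    have h0 : ∀ i, ((D i).reorder (π i)).packetMeasure U = 0 := by
      intro i
      obtain ⟨x, hx1, hx2, hx3⟩ := hD3 i
      exact hnull ((D i).reorder (π i)) x hx1 hx2 fun j => hx3 _
    refine ⟨h0, fun m hm φ _ => ?_⟩
    exact not_convergesWeakly_of_open hm hU hne (Frequently.of_forall fun i => h0 (φ i))
  · intro n B
    obtain ⟨U, hU, hne, hnull⟩ := exists_open_null n B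
    refine ⟨U, hU, hne, fun m hm => hm.measure_pos hU hne, ?_⟩
    rintro D ⟨x, hx1, hx2, hx3⟩
    exact hnull D x hx1 hx2 hx3
  · intro n m hm D hconv B
    by_contra hcon
    obtain ⟨U, hU, hne, hnull⟩ := exists_open_null n B
    refine not_convergesWeakly_of_open hm hU hne ?_ hconv
    rw [not_eventually] at hcon
    refine hcon.mono fun i hi => ?_
    push Not at hi
    obtain ⟨x, hx1, hx2, hx3⟩ := hi
    exact hnull (D i) x hx1 hx3 hx2
  · intro n D
    exact ⟨D.packet_finite, D.packet_nonempty, D.isProbabilityMeasure_packetMeasure⟩

end Vale.Agent.Results.P007.CompositeDegree
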